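import Vale.Agent.P201.Series

/-! The amalgam of copies of one group over a subgroup is an extension of a free group. -/

namespace Vale.Agent.P201

open MonoidAlgebra

universe u

variable {A : Type u} [Group A] (C : Subgroup A) {ι : Type u} (i0 : ι)

/-- The basis of the kernel of the folding map. -/
abbrev Idx : Type u := {x : ι × (A ⧸ C) // x.1 ≠ i0 ∧ x.2 ≠ ((1 : A) : A ⧸ C)}

open Classical in
/-- The free generator of `(i, q)`, which is trivial for `i = i0` and for the trivial coset. -/
noncomputable def w (i : ι) (q : A ⧸ C) : FreeGroup (Idx C i0) :=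
  if h : i ≠ i0 ∧ q ≠ ((1 : A) : A ⧸ C) then FreeGroup.of ⟨(i, q), h⟩ else 1

theorem w_base (q : A ⧸ C) : w C i0 i0 q = 1 := by
  unfold w
  rw [dif_neg (fun h => h.1 rfl)]

theorem w_triv (i : ι) : w C i0 i ((1 : A) : A ⧸ C) = 1 := by
  unfold w
  rw [dif_neg (fun h => h.2 rfl)]

theorem w_idx (x : Idx C i0) : w C i0 x.1.1 x.1.2 = FreeGroup.of x := by
  unfold w
  rw [dif_pos x.2]

/-- The action of `b` on the free group. -/
noncomputable def act0 (b : A) : FreeGroup (Idx C i0) →* FreeGroup (Idx C i0) :=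
  FreeGroup.lift (fun x => (w C i0 x.1.1 ((b : A) : A ⧸ C))⁻¹ * w C i0 x.1.1 (b • x.1.2))

theorem act0_w (b : A) (i : ι) (q : A ⧸ C) :
    act0 C i0 b (w C i0 i q) = (w C i0 i ((b : A) : A ⧸ C))⁻¹ * w C i0 i (b • q) := by
  by_cases h1 : i = i0
  · subst h1
    rw [w_base, w_base, w_base, map_one, inv_one, mul_one]
  · by_cases h2 : q = ((1 : A) : A ⧸ C)
    · subst h2
      have h3 : b • ((1 : A) : A ⧸ C) = ((b : A) : A ⧸ C) := by
        have : b • ((1 : A) : A ⧸ C) = ((b • (1 : A) : A) : A ⧸ C) := rfl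
        rw [this, smul_eq_mul, mul_one]
      rw [w_triv, map_one, h3, inv_mul_cancel]
    · have h3 : w C i0 i q = FreeGroup.of ⟨(i, q), h1, h2⟩ := w_idx C i0 ⟨(i, q), h1, h2⟩
      rw [h3]
      unfold act0
      rw [FreeGroup.lift_apply_of]

theorem smul_coe (b b' : A) : b • ((b' : A) : A ⧸ C) = ((b * b' : A) : A ⧸ C) := rfl

theorem act0_mul (b b' : A) : act0 C i0 (b * b') = (act0 C i0 b).comp (act0 C i0 b') := by
  apply FreeGroup.ext_hom
  intro x
  rw [MonoidHom.comp_apply, ← w_idx, act0_w, act0_w, map_mul, map_inv, act0_w, act0_w, smul_coe,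
    mul_smul]
  group

theorem act0_one : act0 C i0 1 = MonoidHom.id _ := by
  apply FreeGroup.ext_hom
  intro x
  rw [← w_idx, act0_w, w_triv, one_smul, inv_one, one_mul]
  rfl

/-- The action of `A` on the free group. -/
noncomputable def act : A →* MulAut (FreeGroup (Idx C i0)) where
  toFun b :=
    { toFun := act0 C i0 b
      invFun := act0 C i0 b⁻¹
      left_inv := fun x => by
        rw [← MonoidHom.comp_apply, ← act0_mul, inv_mul_cancel, act0_one]
        rfl
      right_inv := fun x => by
        rw [← MonoidHom.comp_apply, ← act0_mul, mul_inv_cancel, act0_one]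
        rfl
      map_mul' := map_mul _ }
  map_one' := by
    ext x
    change act0 C i0 1 x = x
    rw [act0_one]
    rfl
  map_mul' b b' := by
    ext x
    change act0 C i0 (b * b') x = act0 C i0 b (act0 C i0 b' x)
    rw [act0_mul]
    rfl

theorem act_apply (b : A) (x : FreeGroup (Idx C i0)) : act C i0 b x = act0 C i0 b x := rfl

/-- The embedding of the copy `i` in the semidirect product. -/
noncomputable def theta (i : ι) : A →* FreeGroup (Idx C i0) ⋊[act C i0] A where
  toFun a := ⟨w C i0 i ((a : A) : A ⧸ C), a⟩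
  map_one' := by
    rw [w_triv]
    rfl
  map_mul' a b := by
    apply SemidirectProduct.ext
    · rw [SemidirectProduct.mul_left, act_apply, act0_w, smul_coe, mul_inv_cancel_left]
    · rfl

/-- The amalgam of the copies `A` over `C`. -/
abbrev Amalgam (ι : Type u) : Type u := Monoid.PushoutI (fun _ : ι => C.subtype)

theorem coe_mem (c : C) : (((c : A) : A) : A ⧸ C) = ((1 : A) : A ⧸ C) := by
  rw [QuotientGroup.eq]
  simpa using c.2

/-- The map from the amalgam to the semidirect product. -/
noncomputable def Theta : Amalgam C ι →* FreeGroup (Idx C i0) ⋊[act C i0] A :=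
  Monoid.PushoutI.lift (fun i => theta C i0 i) (SemidirectProduct.inr.comp C.subtype) (by
    intro i
    ext1 c
    apply SemidirectProduct.ext
    · change w C i0 i (((c : A) : A) : A ⧸ C) = 1
      rw [coe_mem, w_triv]
    · rfl)

/-- The copy `i` in the amalgam. -/
def cp (i : ι) : A →* Amalgam C ι := Monoid.PushoutI.of (φ := fun _ : ι => C.subtype) i

theorem Theta_cp (i : ι) (a : A) : Theta C i0 (cp C i a) = theta C i0 i a := by
  unfold Theta cp
  rw [Monoid.PushoutI.lift_of]

theorem cp_mem (i j : ι) (c : C) : cp C i (c : A) = cp C j (c : A) := by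
  have h1 := Monoid.PushoutI.of_apply_eq_base (fun _ : ι => C.subtype) i c
  have h2 := Monoid.PushoutI.of_apply_eq_base (fun _ : ι => C.subtype) j c
  exact h1.trans h2.symm

/-- The element `a_i a_0⁻¹`. -/
def wP (i : ι) (a : A) : Amalgam C ι := cp C i a * (cp C i0 a)⁻¹

theorem wP_mul (i : ι) (a : A) (c : C) : wP C i0 i (a * c) = wP C i0 i a := by
  unfold wP
  rw [map_mul, map_mul, cp_mem C i i0 c]
  group

theorem wP_eq (i : ι) {a a' : A} (h : ((a : A) : A ⧸ C) = ((a' : A) : A ⧸ C)) :
    wP C i0 i a = wP C i0 i a' := by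
  have h1 := QuotientGroup.eq.mp h
  have h2 := wP_mul C i0 i a ⟨_, h1⟩
  rw [← h2]
  congr 1
  simp

/-- The map of the free group onto the kernel of the folding map. -/
noncomputable def psi : FreeGroup (Idx C i0) →* Amalgam C ι :=
  FreeGroup.lift (fun x => wP C i0 x.1.1 (Quotient.out x.1.2))

theorem psi_w (i : ι) (a : A) : psi C i0 (w C i0 i ((a : A) : A ⧸ C)) = wP C i0 i a := by
  by_cases h1 : i = i0
  · subst h1
    rw [w_base, map_one]
    unfold wP
    rw [mul_inv_cancel]
  · by_cases h2 : ((a : A) : A ⧸ C) = ((1 : A) : A ⧸ C)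
    · rw [h2, w_triv, map_one, wP_eq C i0 i h2]
      unfold wP
      rw [map_one, map_one, inv_one, mul_one]
    · have h3 := w_idx C i0 ⟨(i, ((a : A) : A ⧸ C)), h1, h2⟩
      simp only at h3
      rw [h3]
      unfold psi
      rw [FreeGroup.lift_apply_of]
      exact wP_eq C i0 i (QuotientGroup.out_eq' _)

theorem Theta_psi (f : FreeGroup (Idx C i0)) :
    Theta C i0 (psi C i0 f) = SemidirectProduct.inl f := by
  have : (Theta C i0).comp (psi C i0) = SemidirectProduct.inl := by
    apply FreeGroup.ext_hom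
    intro x
    have h1 : FreeGroup.of x = w C i0 x.1.1 (((Quotient.out x.1.2 : A) : A) : A ⧸ C) := by
      rw [QuotientGroup.out_eq', w_idx]
    rw [MonoidHom.comp_apply, h1, psi_w]
    unfold wP
    rw [map_mul, map_inv, Theta_cp, Theta_cp]
    apply SemidirectProduct.ext
    · rw [SemidirectProduct.mul_left, SemidirectProduct.inv_left, SemidirectProduct.left_inl]
      change w C i0 x.1.1 _ * act C i0 _ (act C i0 _ (w C i0 i0 _)⁻¹) = _
      rw [w_base, inv_one, map_one, map_one, mul_one]
    · rw [SemidirectProduct.mul_right, SemidirectProduct.inv_right,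
        SemidirectProduct.right_inl]
      exact mul_inv_cancel _
  exact DFunLike.congr_fun this f

theorem psi_injective : Function.Injective (psi C i0) := by
  intro f g h
  have : SemidirectProduct.inl (φ := act C i0) f = SemidirectProduct.inl g := by
    rw [← Theta_psi, ← Theta_psi, h]
  exact SemidirectProduct.inl_injective this

theorem conj_psi (a : A) (f : FreeGroup (Idx C i0)) :
    cp C i0 a * psi C i0 f * (cp C i0 a)⁻¹ = psi C i0 (act0 C i0 a f) := by
  have : (MulAut.conj (cp C i0 a)).toMonoidHom.comp (psi C i0) =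
      (psi C i0).comp (act0 C i0 a) := by
    apply FreeGroup.ext_hom
    intro x
    have h1 : FreeGroup.of x = w C i0 x.1.1 (((Quotient.out x.1.2 : A) : A) : A ⧸ C) := by
      rw [QuotientGroup.out_eq', w_idx]
    rw [MonoidHom.comp_apply, MonoidHom.comp_apply, h1, psi_w, act0_w, map_mul, map_inv, smul_coe,
      psi_w, psi_w]
    change cp C i0 a * wP C i0 x.1.1 _ * (cp C i0 a)⁻¹ = _
    unfold wP
    rw [map_mul, map_mul]
    group
  exact DFunLike.congr_fun this f

/-- The folding map. -/
def fold : Amalgam C ι →* A :=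
  Monoid.PushoutI.lift (fun _ => MonoidHom.id A) C.subtype (fun _ => rfl)

theorem fold_cp (i : ι) (a : A) : fold C (cp C i a) = a := by
  unfold fold cp
  rw [Monoid.PushoutI.lift_of]
  rfl

theorem fold_psi (f : FreeGroup (Idx C i0)) : fold C (psi C i0 f) = 1 := by
  have : (fold C).comp (psi C i0) = 1 := by
    apply FreeGroup.ext_hom
    intro x
    rw [MonoidHom.comp_apply]
    unfold psi
    rw [FreeGroup.lift_apply_of]
    unfold wP
    rw [map_mul, map_inv, fold_cp, fold_cp, mul_inv_cancel]
    rfl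
  exact DFunLike.congr_fun this f

theorem decomp (p : Amalgam C ι) : ∃ f a, p = psi C i0 f * cp C i0 a := by
  induction p using Monoid.PushoutI.induction_on with
  | of i g =>
    refine ⟨w C i0 i ((g : A) : A ⧸ C), g, ?_⟩
    rw [psi_w]
    unfold wP
    rw [inv_mul_cancel_right]
    rfl
  | base h =>
    refine ⟨1, (h : A), ?_⟩
    rw [map_one, one_mul]
    exact (Monoid.PushoutI.of_apply_eq_base (fun _ : ι => C.subtype) i0 h).symm
  | mul x y hx hy =>
    obtain ⟨f, a, rfl⟩ := hx
    obtain ⟨f', a', rfl⟩ := hy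
    refine ⟨f * act0 C i0 a f', a * a', ?_⟩
    rw [map_mul, map_mul, ← conj_psi]
    group

theorem mem_ker (p : Amalgam C ι) : p ∈ (fold C : Amalgam C ι →* A).ker ↔
    ∃ f, psi C i0 f = p := by
  rw [MonoidHom.mem_ker]
  constructor
  · intro h
    obtain ⟨f, a, rfl⟩ := decomp C i0 p
    rw [map_mul, fold_psi, fold_cp, one_mul] at h
    exact ⟨f, by rw [h, map_one, mul_one]⟩
  · rintro ⟨f, rfl⟩
    exact fold_psi C i0 f

include i0 in
theorem ker_free : IsFreeGroup (fold C : Amalgam C ι →* A).ker := by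
  let e : FreeGroup (Idx C i0) →* (fold C : Amalgam C ι →* A).ker :=
    (psi C i0).codRestrict _ (fun f => (mem_ker C i0 _).mpr ⟨f, rfl⟩)
  have he : Function.Bijective e := by
    constructor
    · intro f g h
      exact psi_injective C i0 (congrArg Subtype.val h)
    · rintro ⟨p, hp⟩
      obtain ⟨f, hf⟩ := (mem_ker C i0 p).mp hp
      exact ⟨f, Subtype.ext hf⟩
  exact IsFreeGroup.ofMulEquiv (MulEquiv.ofBijective e he)

theorem amalgam_domain {K : Type*} [CommRing K] [hι : Nonempty ι]
    (h : NoZeroDivisors (MonoidAlgebra K A)) :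
    NoZeroDivisors (MonoidAlgebra K (Amalgam C ι)) := by
  obtain ⟨i0⟩ := hι
  haveI := ker_free C i0
  have hs : Function.Surjective (fold C : Amalgam C ι →* A) := fun a => ⟨cp C i0 a, fold_cp C i0 a⟩
  exact noZeroDivisors_of_locallyFree locallyFree_of_free
    (noZeroDivisors_of_mulEquiv (QuotientGroup.quotientKerEquivOfSurjective _ hs).symm h)

end Vale.Agent.P201
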