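import Vale.Agent.P201.Ring

/-! The intersection of the powers of the kernel is zero. -/

namespace Vale.Agent.P201

open MonoidAlgebra

variable {X : Type*} [DecidableEq X] {K : Type*} [CommRing K] {G : Type*} [Group G]
  (φ : FreeGroup X →* G)

/-- The sum of the coefficients. -/
noncomputable def eps : MonoidAlgebra K G →+ K :=
  (Finsupp.liftAddHom (fun _ : G => AddMonoidHom.id K)).comp
    (coeffAddEquiv (R := K) (M := G)).toAddMonoidHom

theorem eps_single (g : G) (a : K) : eps (single g a) = a := by
  unfold eps
  have : (coeffAddEquiv (R := K) (M := G)) (single g a) = Finsupp.single g a := rfl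
  simp only [AddMonoidHom.comp_apply, AddEquiv.toAddMonoidHom_eq_coe, AddMonoidHom.coe_coe, this]
  rw [Finsupp.liftAddHom_apply_single]
  rfl

theorem eps_eq (f : MonoidAlgebra K G) : eps f = ∑ g ∈ f.coeff.support, f.coeff g := by
  unfold eps
  have : (coeffAddEquiv (R := K) (M := G)) f = f.coeff := rfl
  simp only [AddMonoidHom.comp_apply, AddEquiv.toAddMonoidHom_eq_coe, AddMonoidHom.coe_coe, this]
  rw [Finsupp.liftAddHom_apply]
  rfl

open Classical in
theorem Lh_eq (x : X) (s : G) (f : MonoidAlgebra K G) :
    Lh φ x s f = ∑ g ∈ f.coeff.support, if g * s⁻¹ ∈ E φ x then f.coeff g else 0 := by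
  unfold Lh
  have : (coeffAddEquiv (R := K) (M := G)) f = f.coeff := rfl
  simp only [AddMonoidHom.comp_apply, AddEquiv.toAddMonoidHom_eq_coe, AddMonoidHom.coe_coe, this]
  rw [Finsupp.liftAddHom_apply]
  refine Finset.sum_congr rfl fun g _ => ?_
  by_cases h : g * s⁻¹ ∈ E φ x <;> simp [h]

theorem eps_b_mul (y : X) (f : MonoidAlgebra K G) : eps (b φ y * f) = 0 := by
  induction f using MonoidAlgebra.induction_linear with
  | zero => simp
  | add f g hf hg => rw [mul_add, map_add, hf, hg, add_zero]
  | single g a => rw [b_mul_single, map_sub, eps_single, eps_single, sub_self]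

theorem eps_Phi (c : X →₀ MonoidAlgebra K G) : eps (Phi φ c) = 0 := by
  rw [Phi_eq, map_sum]
  exact Finset.sum_eq_zero fun y _ => eps_b_mul φ y _

theorem exists_coef (hφ : Function.Injective φ) {α : MonoidAlgebra K G} (h : ∀ n, D φ n α) :
    ∃ c, α = Phi φ c ∧ ∀ x n, D φ n (c x) := by
  obtain ⟨c, hc, -⟩ := h 1
  refine ⟨c, hc, fun x n => ?_⟩
  obtain ⟨c', hc', hn⟩ := h (n + 1)
  have : c = c' := Phi_injective φ hφ (by rw [← hc, ← hc'])
  rw [this]
  exact hn x

theorem coeff_sphere {f : MonoidAlgebra K (FreeGroup X)} {c}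
    (hc : f = Phi (MonoidHom.id (FreeGroup X)) c) {r : ℕ}
    (hr : ∀ m, f.coeff m ≠ 0 → m.norm ≤ r) {s : FreeGroup X} (hs : r ≤ s.norm) (x : X) :
    (c x).coeff s = if headL s = some (x, false) then - f.coeff s else 0 := by
  classical
  have hinj : Function.Injective (MonoidHom.id (FreeGroup X)) := Function.injective_id
  rw [← Lh_Phi _ hinj x s c, ← hc, Lh_eq]
  have key : ∀ g ∈ f.coeff.support, (if g * s⁻¹ ∈ E (MonoidHom.id (FreeGroup X)) x
      then f.coeff g else 0) =
      if headL s = some (x, false) then (f.coeff g - if g = s then f.coeff g else 0) else 0 := by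
    intro g hg
    have hg' := hr g (Finsupp.mem_support_iff.mp hg)
    by_cases hgs : g = s
    · subst hgs
      have h2 := one_notMem_E (MonoidHom.id (FreeGroup X)) x hinj
      rw [mul_inv_cancel, if_neg h2]
      simp
    · have h1 : g * s⁻¹ ∈ E (MonoidHom.id (FreeGroup X)) x ↔ headL s = some (x, false) := by
        rw [← lastL_mul_inv hgs (hg'.trans hs) x]
        constructor
        · rintro ⟨n, h3, h4⟩
          rw [← h4]
          exact h3
        · intro h3
          exact ⟨_, h3, rfl⟩
      rw [if_neg hgs, sub_zero]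
      by_cases h2 : headL s = some (x, false)
      · rw [if_pos (h1.mpr h2), if_pos h2]
      · rw [if_neg (fun h3 => h2 (h1.mp h3)), if_neg h2]
  rw [Finset.sum_congr rfl key]
  split_ifs with h
  · rw [Finset.sum_sub_distrib, ← eps_eq, hc, eps_Phi, zero_sub, ← hc]
    congr 1
    rw [Finset.sum_ite_eq']
    split_ifs with h2
    · rfl
    · exact (Finsupp.notMem_support_iff.mp h2).symm
  · simp

theorem sphere_step {f : MonoidAlgebra K (FreeGroup X)}
    (hf : ∀ n, D (MonoidHom.id (FreeGroup X)) n f) {r : ℕ}
    (hr : ∀ m, f.coeff m ≠ 0 → m.norm ≤ r + 1)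
    (hP : ∀ s : FreeGroup X, s.norm = r + 1 → f.coeff s ≠ 0 → ∀ x, headL s ≠ some (x, false))
    (ih : ∀ g : MonoidAlgebra K (FreeGroup X), (∀ n, D (MonoidHom.id (FreeGroup X)) n g) →
      (∀ m, g.coeff m ≠ 0 → m.norm ≤ r) → g = 0) : f = 0 := by
  obtain ⟨c, hc, hcn⟩ := exists_coef _ Function.injective_id hf
  have : c = 0 := by
    ext1 x
    refine ih (c x) (hcn x) ?_
    intro s hs
    by_contra hcon
    push Not at hcon
    rw [coeff_sphere hc hr (by omega) x] at hs
    split_ifs at hs with h1
    · have h2 : f.coeff s ≠ 0 := fun h => hs (by rw [h, neg_zero])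
      have h3 := hr s h2
      exact hP s (by omega) h2 x h1
    · exact hs rfl
  rw [hc, this, map_zero]

theorem inter_free (f : MonoidAlgebra K (FreeGroup X))
    (hf : ∀ n, D (MonoidHom.id (FreeGroup X)) n f) : f = 0 := by
  have main : ∀ r : ℕ, ∀ g : MonoidAlgebra K (FreeGroup X),
      (∀ n, D (MonoidHom.id (FreeGroup X)) n g) →
      (∀ m, g.coeff m ≠ 0 → m.norm ≤ r) → g = 0 := by
    intro r
    induction r with
    | zero =>
      intro g hg hr
      obtain ⟨c, hc, -⟩ := exists_coef _ Function.injective_id hg
      have h1 : eps g = 0 := by rw [hc, eps_Phi]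
      have h2 : g = single 1 (g.coeff 1) := by
        ext m
        rw [coeff_single, Finsupp.single_apply]
        split_ifs with h
        · rw [h]
        · by_contra hcon
          have := hr m hcon
          exact h (FreeGroup.norm_eq_zero.mp (by omega)).symm
      rw [h2, eps_single] at h1
      rw [h2, h1, single_zero]
    | succ r ih =>
      intro g hg hr
      by_contra hg0
      obtain ⟨s0, x, h1, h2, h3⟩ : ∃ (s0 : FreeGroup X) (x : X), s0.norm = r + 1 ∧
          g.coeff s0 ≠ 0 ∧ headL s0 = some (x, false) := by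
        by_contra hcon
        push Not at hcon
        exact hg0 (sphere_step hg hr (fun s hs1 hs2 x => hcon s x hs1 hs2) ih)
      obtain ⟨c, hc, hcn⟩ := exists_coef _ Function.injective_id hg
      -- `c x` has only sphere points which begin with `x⁻¹`
      have h4 : (c x).coeff s0 ≠ 0 := by
        rw [coeff_sphere hc hr (by omega) x, if_pos h3]
        exact neg_ne_zero.mpr h2
      have h5 : ∀ m, (c x).coeff m ≠ 0 → m.norm ≤ r + 1 ∧
          (m.norm = r + 1 → headL m = some (x, false)) := by
        intro m hm
        by_cases h6 : r + 1 ≤ m.norm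
        · rw [coeff_sphere hc hr h6 x] at hm
          split_ifs at hm with h7
          · have h8 : g.coeff m ≠ 0 := fun h => hm (by rw [h, neg_zero])
            exact ⟨hr m h8, fun _ => h7⟩
          · exact absurd rfl hm
        · exact ⟨by omega, fun h => absurd h (by omega)⟩
      have h6 : single (FreeGroup.of x) 1 * c x = 0 := by
        refine sphere_step (r := r) (fun n => ?_) ?_ ?_ ih
        · exact D_mul_left (N := ⊤) (MonoidHom.id (FreeGroup X))
            (fun g => ⟨fun _ => ⟨g, rfl⟩, fun _ => Subgroup.mem_top g⟩) (hcn x n) _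
        · intro m hm
          rw [coeff_single_mul_apply, one_mul] at hm
          obtain ⟨h7, h8⟩ := h5 _ hm
          have h9 := norm_of_mul x ((FreeGroup.of x)⁻¹ * m)
          rw [mul_inv_cancel_left] at h9
          rw [h9]
          split_ifs with h10
          · omega
          · have : ((FreeGroup.of x)⁻¹ * m).norm ≠ r + 1 := fun h => h10 (h8 h)
            omega
        · intro s hs1 hs2 y
          rw [coeff_single_mul_apply, one_mul] at hs2
          obtain ⟨h7, h8⟩ := h5 _ hs2
          have h9 := norm_of_mul x ((FreeGroup.of x)⁻¹ * s)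
          rw [mul_inv_cancel_left, hs1] at h9
          have h10 : headL ((FreeGroup.of x)⁻¹ * s) ≠ some (x, false) := by
            intro h
            rw [if_pos h] at h9
            omega
          have h11 := headL_of_mul h10
          rw [mul_inv_cancel_left] at h11
          rw [h11]
          simp
      have h7 : c x = 0 := by
        have h8 : single (FreeGroup.of x)⁻¹ 1 * (single (FreeGroup.of x) 1 * c x) = 0 := by
          rw [h6, mul_zero]
        rw [← mul_assoc, single_mul_single, inv_mul_cancel, mul_one, ← one_def, one_mul] at h8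
        exact h8
      rw [h7] at h4
      exact h4 rfl
  refine main (f.coeff.support.sup FreeGroup.norm) f hf ?_
  intro m hm
  exact Finset.le_sup (f := FreeGroup.norm) (Finsupp.mem_support_iff.mpr hm)

theorem inj_mul (hφ : Function.Injective φ) (t : G) :
    Function.Injective (fun n => φ n * t) := by
  intro a b h
  exact hφ (mul_right_cancel h)

/-- Restriction to the coset of `t`. -/
noncomputable def rho (hφ : Function.Injective φ) (t : G) :
    MonoidAlgebra K G →+ MonoidAlgebra K (FreeGroup X) :=
  comapDomainAddMonoidHom (fun n => φ n * t) (inj_mul φ hφ t)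

theorem coeff_rho (hφ : Function.Injective φ) (t : G) (α : MonoidAlgebra K G)
    (n : FreeGroup X) : (rho φ hφ t α).coeff n = α.coeff (φ n * t) := by
  have h : rho φ hφ t α = comapDomain (fun n => φ n * t) (inj_mul φ hφ t) α := rfl
  rw [h, coeff_comapDomain]
  rfl

theorem rho_b_mul (hφ : Function.Injective φ) (t : G) (y : X) (α : MonoidAlgebra K G) :
    rho φ hφ t (b φ y * α) = b (MonoidHom.id (FreeGroup X)) y * rho φ hφ t α := by
  unfold b
  rw [sub_mul, sub_mul, one_mul, one_mul, map_sub]
  congr 1
  ext n
  rw [coeff_rho, coeff_single_mul_apply, coeff_single_mul_apply, coeff_rho]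
  congr 2
  simp [mul_assoc]

theorem rho_Phi (hφ : Function.Injective φ) (t : G) (c : X →₀ MonoidAlgebra K G) :
    rho φ hφ t (Phi φ c) =
      Phi (MonoidHom.id (FreeGroup X)) (c.mapRange (rho φ hφ t) (map_zero _)) := by
  induction c using Finsupp.induction_linear with
  | zero => simp
  | add f g hf hg =>
    rw [map_add, map_add, hf, hg, ← map_add]
    congr 1
    ext1 x
    simp
  | single y r => rw [Phi_single, rho_b_mul, Finsupp.mapRange_single, Phi_single]

theorem D_rho (hφ : Function.Injective φ) (t : G) {n : ℕ} {α : MonoidAlgebra K G}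
    (h : D φ n α) : D (MonoidHom.id (FreeGroup X)) n (rho φ hφ t α) := by
  induction n generalizing α with
  | zero => trivial
  | succ n ih =>
    obtain ⟨c, rfl, hc⟩ := h
    refine ⟨_, rho_Phi φ hφ t c, fun x => ?_⟩
    rw [Finsupp.mapRange_apply]
    exact ih (hc x)

theorem inter_zero (hφ : Function.Injective φ) {α : MonoidAlgebra K G} (h : ∀ n, D φ n α) :
    α = 0 := by
  ext t
  have h1 := inter_free (rho φ hφ t α) (fun n => D_rho φ hφ t (h n))
  have h2 := coeff_rho φ hφ t α 1
  rw [h1, φ.map_one, one_mul] at h2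
  rw [← h2]
  rfl

end Vale.Agent.P201
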