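import Vale.Agent.P201.Inter

/-! Zero divisors in group rings of extensions with free kernel. -/

namespace Vale.Agent.P201

open MonoidAlgebra

section anti

variable {K : Type*} [CommRing K] {G : Type*} [Group G]

/-- The homomorphism to the opposite ring that inverts group elements. -/
noncomputable def anti : MonoidAlgebra K G →ₐ[K] (MonoidAlgebra K G)ᵐᵒᵖ :=
  MonoidAlgebra.lift K _ G
    { toFun := fun g => MulOpposite.op (single g⁻¹ 1)
      map_one' := by rw [inv_one, ← one_def]; rfl
      map_mul' := fun g h => by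
        rw [mul_inv_rev, ← MulOpposite.op_mul, single_mul_single, one_mul] }

/-- The anti-involution `∑ a g ↦ ∑ a g⁻¹`. -/
noncomputable def st (α : MonoidAlgebra K G) : MonoidAlgebra K G := (anti α).unop

theorem st_mul (α β : MonoidAlgebra K G) : st (α * β) = st β * st α := by
  unfold st
  rw [map_mul, MulOpposite.unop_mul]

theorem st_add (α β : MonoidAlgebra K G) : st (α + β) = st α + st β := by
  unfold st
  rw [map_add, MulOpposite.unop_add]

theorem st_zero : st (0 : MonoidAlgebra K G) = 0 := by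
  unfold st
  rw [map_zero, MulOpposite.unop_zero]

theorem st_single (g : G) (a : K) : st (single g a) = single g⁻¹ a := by
  unfold st anti
  rw [MonoidAlgebra.lift_single]
  simp

theorem st_st (α : MonoidAlgebra K G) : st (st α) = α := by
  induction α using MonoidAlgebra.induction_linear with
  | zero => rw [st_zero, st_zero]
  | add f g hf hg => rw [st_add, st_add, hf, hg]
  | single g a => rw [st_single, st_single, inv_inv]

theorem st_ne_zero {α : MonoidAlgebra K G} (h : α ≠ 0) : st α ≠ 0 := fun h' =>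
  h (by rw [← st_st α, h', st_zero])

theorem st_map {Q : Type*} [Group Q] (f : G →* Q) (α : MonoidAlgebra K G) :
    st (mapDomainRingHom K f α) = mapDomainRingHom K f (st α) := by
  induction α using MonoidAlgebra.induction_linear with
  | zero => rw [map_zero, st_zero, st_zero, map_zero]
  | add u v hu hv => rw [map_add, st_add, hu, hv, ← map_add, ← st_add]
  | single g a =>
    rw [st_single]
    simp only [mapDomainRingHom_apply, mapDomain_single, st_single, map_inv]

end anti

variable {X : Type*} [DecidableEq X] {K : Type*} [CommRing K] {G : Type*} [Group G]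
  (φ : FreeGroup X →* G) {N : Subgroup G}

/-- Elements of the support in the same coset of `N` differ by an element of the range of `φ`. -/
def Close (φ : FreeGroup X →* G) (N : Subgroup G) (α : MonoidAlgebra K G) : Prop :=
  ∀ g h, α.coeff g ≠ 0 → α.coeff h ≠ 0 → g * h⁻¹ ∈ N → ∃ m, φ m = g * h⁻¹

theorem coeff_Phi_ne (hφ : Function.Injective φ) {c : X →₀ MonoidAlgebra K G} {x : X} {s : G}
    (h : (c x).coeff s ≠ 0) : ∃ g m, (Phi φ c).coeff g ≠ 0 ∧ φ m = g * s⁻¹ := by
  classical
  rw [← Lh_Phi φ hφ, Lh_eq] at h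
  obtain ⟨g, hg, hg'⟩ := Finset.exists_ne_zero_of_sum_ne_zero h
  have h1 : g * s⁻¹ ∈ E φ x := by
    by_contra hcon
    rw [if_neg hcon] at hg'
    exact hg' rfl
  obtain ⟨m, -, hm⟩ := h1
  exact ⟨g, m, Finsupp.mem_support_iff.mp hg, hm⟩

theorem Close.coef (hφ : Function.Injective φ) [N.Normal] (hN : ∀ m, φ m ∈ N)
    {c : X →₀ MonoidAlgebra K G} (h : Close φ N (Phi φ c)) (x : X) : Close φ N (c x) := by
  intro s s' hs hs' hss
  obtain ⟨g, m, h1, h2⟩ := coeff_Phi_ne φ hφ hs
  obtain ⟨g', m', h1', h2'⟩ := coeff_Phi_ne φ hφ hs'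
  have e1 : g = φ m * s := by rw [h2]; simp
  have e2 : g' = φ m' * s' := by rw [h2']; simp
  have h3 : g * g'⁻¹ ∈ N := by
    rw [e1, e2]
    have : φ m * s * (φ m' * s')⁻¹ = φ m * (s * s'⁻¹) * (φ m')⁻¹ := by group
    rw [this]
    exact N.mul_mem (N.mul_mem (hN m) hss) (N.inv_mem (hN m'))
  obtain ⟨m3, hm3⟩ := h g g' h1 h1' h3
  refine ⟨m⁻¹ * m3 * m', ?_⟩
  rw [map_mul, map_mul, map_inv, hm3, e1, e2]
  group

/-- A close element of the kernel of `K[G] → K[G/N]` is of the form `Φ c`. -/
theorem mem_of_map_eq_zero {α : MonoidAlgebra K G} (hα : Close φ N α) [N.Normal]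
    (h : mapDomainRingHom K (QuotientGroup.mk' N) α = 0) : ∃ c, α = Phi φ c := by
  classical
  let rep : G ⧸ N → G := fun q =>
    if h : ∃ g, α.coeff g ≠ 0 ∧ (g : G ⧸ N) = q then h.choose else 1
  have hrep : ∀ g, α.coeff g ≠ 0 → ∃ m, φ m = g * (rep (g : G ⧸ N))⁻¹ := by
    intro g hg
    have h1 : ∃ g', α.coeff g' ≠ 0 ∧ (g' : G ⧸ N) = (g : G ⧸ N) := ⟨g, hg, rfl⟩
    have h2 : rep (g : G ⧸ N) = h1.choose := dif_pos h1
    rw [h2]
    obtain ⟨h3, h4⟩ := h1.choose_spec
    refine hα g _ hg h3 ?_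
    have h5 := QuotientGroup.eq.mp h4
    exact (Subgroup.Normal.mem_comm_iff inferInstance).mp h5
  have key : ∃ c, ∑ g ∈ α.coeff.support, (single g (α.coeff g) -
      single (rep (g : G ⧸ N)) (α.coeff g)) = Phi φ c := by
    have h1 : ∀ g ∈ α.coeff.support, ∃ c, single g (α.coeff g) -
        single (rep (g : G ⧸ N)) (α.coeff g) = Phi φ c := by
      intro g hg
      obtain ⟨m, hm⟩ := hrep g (Finsupp.mem_support_iff.mp hg)
      obtain ⟨c, hc⟩ := of_sub_one_mem φ m (single (rep (g : G ⧸ N)) (α.coeff g))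
      refine ⟨c, ?_⟩
      rw [← hc, hm, sub_mul, single_mul_single, one_mul, one_mul, inv_mul_cancel_right]
    have h2 : ∀ t : Finset G, t ⊆ α.coeff.support → ∃ c, ∑ g ∈ t, (single g (α.coeff g) -
        single (rep (g : G ⧸ N)) (α.coeff g)) = Phi φ c := by
      intro t
      induction t using Finset.induction_on with
      | empty => intro _; exact ⟨0, by simp⟩
      | insert a t ha ih =>
        intro ht
        obtain ⟨c1, hc1⟩ := ih (fun y hy => ht (Finset.mem_insert_of_mem hy))
        obtain ⟨c2, hc2⟩ := h1 a (ht (Finset.mem_insert_self a t))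
        exact ⟨c2 + c1, by rw [Finset.sum_insert ha, hc1, hc2, map_add]⟩
    exact h2 _ (Finset.Subset.refl _)
  obtain ⟨c, hc⟩ := key
  refine ⟨c, ?_⟩
  rw [← hc, Finset.sum_sub_distrib]
  have e1 : ∑ g ∈ α.coeff.support, single g (α.coeff g) = α := sum_coeff_single α
  have e2 : ∑ g ∈ α.coeff.support, single (rep (g : G ⧸ N)) (α.coeff g) =
      mapDomain rep (mapDomainRingHom K (QuotientGroup.mk' N) α) := by
    conv_rhs => rw [← e1]
    rw [map_sum]
    have h3 : ∀ t : Finset G, mapDomain rep (∑ g ∈ t,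
        mapDomainRingHom K (QuotientGroup.mk' N) (single g (α.coeff g))) =
        ∑ g ∈ t, single (rep (g : G ⧸ N)) (α.coeff g) := by
      intro t
      induction t using Finset.induction_on with
      | empty => simp
      | insert a t ha ih =>
        rw [Finset.sum_insert ha, Finset.sum_insert ha, mapDomain_add, ih]
        congr 1
        simp only [mapDomainRingHom_apply, mapDomain_single]
        rfl
    rw [h3]
  rw [e1, e2, h, mapDomain_zero, sub_zero]

theorem exists_outside (hφ : Function.Injective φ) [N.Normal] (hN : ∀ m, φ m ∈ N)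
    {α β : MonoidAlgebra K G} (hcl : Close φ N α) (hα : α ≠ 0) (hαβ : α * β = 0) :
    ∃ α' : MonoidAlgebra K G, mapDomainRingHom K (QuotientGroup.mk' N) α' ≠ 0 ∧ α' * β = 0 := by
  have key : ∀ n, ∀ γ : MonoidAlgebra K G, Close φ N γ → D φ n γ → ¬ D φ (n + 1) γ →
      γ * β = 0 →
      ∃ α' : MonoidAlgebra K G, mapDomainRingHom K (QuotientGroup.mk' N) α' ≠ 0 ∧
        α' * β = 0 := by
    intro n
    induction n with
    | zero =>
      intro γ hγ _ h1 h2
      refine ⟨γ, fun h3 => h1 ?_, h2⟩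
      obtain ⟨c, hc⟩ := mem_of_map_eq_zero φ hγ h3
      exact ⟨c, hc, fun _ => trivial⟩
    | succ n ih =>
      intro γ hγ h0 h1 h2
      obtain ⟨c, rfl, hc⟩ := h0
      have h3 : ∀ x, c x * β = 0 := by
        intro x
        rw [Phi_mul] at h2
        have h4 := Phi_injective φ hφ (h2.trans (map_zero (Phi φ)).symm)
        have h5 := DFunLike.congr_fun h4 x
        rwa [Finsupp.mapRange_apply] at h5
      obtain ⟨x, hx⟩ : ∃ x, ¬ D φ (n + 1) (c x) := by
        by_contra hcon
        push Not at hcon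
        exact h1 ⟨c, rfl, hcon⟩
      exact ih (c x) (hγ.coef φ hφ hN x) (hc x) hx (h3 x)
  have hex : ∃ n, ¬ D φ n α := by
    by_contra hcon
    push Not at hcon
    exact hα (inter_zero φ hφ hcon)
  classical
  have h1 := Nat.find_spec hex
  have h2 : Nat.find hex ≠ 0 := by
    intro h
    rw [h] at h1
    exact h1 trivial
  obtain ⟨n, hn⟩ := Nat.exists_eq_succ_of_ne_zero h2
  have h3 : D φ n α := by
    by_contra hcon
    have := Nat.find_min' hex hcon
    omega
  rw [hn] at h1
  exact key n α hcl h3 h1 hαβ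

/-- Every finite subset of `N` lies in a free subgroup of `N`. -/
def LocallyFree (N : Subgroup G) : Prop :=
  ∀ S : Finset G, (∀ s ∈ S, s ∈ N) → ∃ H : Subgroup G, H ≤ N ∧ (∀ s ∈ S, s ∈ H) ∧ IsFreeGroup H

theorem exists_outside' [N.Normal] (hN : LocallyFree N)
    {α β : MonoidAlgebra K G} (hα : α ≠ 0) (hαβ : α * β = 0) :
    ∃ α' : MonoidAlgebra K G, mapDomainRingHom K (QuotientGroup.mk' N) α' ≠ 0 ∧ α' * β = 0 := by
  classical
  obtain ⟨H, hHN, hSH, hfree⟩ := hN (((α.coeff.support ×ˢ α.coeff.support).image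
    (fun q => q.1 * q.2⁻¹)).filter (fun g => g ∈ N)) (fun s hs => (Finset.mem_filter.mp hs).2)
  let φ : FreeGroup (IsFreeGroup.Generators H) →* G :=
    H.subtype.comp (IsFreeGroup.toFreeGroup H).symm.toMonoidHom
  have hφ : Function.Injective φ := by
    intro a b hab
    have h1 := Subtype.coe_injective (p := fun x => x ∈ H) hab
    exact (IsFreeGroup.toFreeGroup H).symm.injective h1
  have hφN : ∀ m, φ m ∈ N := fun m => hHN ((IsFreeGroup.toFreeGroup H).symm m).2
  refine exists_outside φ hφ hφN ?_ hα hαβ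
  intro g h hg hh hgh
  have h1 : g * h⁻¹ ∈ H := hSH _ (Finset.mem_filter.mpr ⟨Finset.mem_image.mpr
    ⟨(g, h), Finset.mem_product.mpr ⟨Finsupp.mem_support_iff.mpr hg,
      Finsupp.mem_support_iff.mpr hh⟩, rfl⟩, hgh⟩)
  refine ⟨IsFreeGroup.toFreeGroup H ⟨_, h1⟩, ?_⟩
  change (((IsFreeGroup.toFreeGroup H).symm (IsFreeGroup.toFreeGroup H ⟨_, h1⟩) : H) : G) = _
  rw [MulEquiv.symm_apply_apply]

theorem noZeroDivisors_of_locallyFree [N.Normal] (hN : LocallyFree N)
    (hQ : NoZeroDivisors (MonoidAlgebra K (G ⧸ N))) : NoZeroDivisors (MonoidAlgebra K G) := by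
  constructor
  intro α β h
  by_contra hcon
  push Not at hcon
  obtain ⟨hα, hβ⟩ := hcon
  obtain ⟨α', h1, h2⟩ := exists_outside' hN hα h
  have h3 : st β * st α' = 0 := by rw [← st_mul, h2, st_zero]
  obtain ⟨γ, h4, h5⟩ := exists_outside' hN (st_ne_zero hβ) h3
  have h6 : mapDomainRingHom K (QuotientGroup.mk' N) γ *
      mapDomainRingHom K (QuotientGroup.mk' N) (st α') = 0 := by
    rw [← map_mul, h5, map_zero]
  rcases mul_eq_zero.mp h6 with h7 | h7
  · exact h4 h7
  · rw [← st_map] at h7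
    exact st_ne_zero h1 h7

theorem locallyFree_of_free [hN : IsFreeGroup N] : LocallyFree N :=
  fun _ hS => ⟨N, le_rfl, hS, hN⟩

end Vale.Agent.P201
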