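import Vale.Agent.P201.Words

/-! The kernel of `K[G] → K[G/N]` for a free normal subgroup `N` is a free right module. -/

namespace Vale.Agent.P201

open MonoidAlgebra

variable {X : Type*} [DecidableEq X] {K : Type*} [CommRing K] {G : Type*} [Group G]
  (φ : FreeGroup X →* G)

/-- The elements `φ n` such that the reduced word `n` ends with the letter `x`. -/
def E (x : X) : Set G := {g | ∃ n, lastL n = some (x, true) ∧ φ n = g}

open Classical in
/-- Sum of the coefficients over `E x * s`. -/
noncomputable def Lh (x : X) (s : G) : MonoidAlgebra K G →+ K :=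
  (Finsupp.liftAddHom (fun g : G => if g * s⁻¹ ∈ E φ x then AddMonoidHom.id K else 0)).comp
    (coeffAddEquiv (R := K) (M := G)).toAddMonoidHom

open Classical in
theorem Lh_single (x : X) (s g : G) (a : K) :
    Lh φ x s (single g a) = if g * s⁻¹ ∈ E φ x then a else 0 := by
  unfold Lh
  have : (coeffAddEquiv (R := K) (M := G)) (single g a) = Finsupp.single g a := rfl
  simp only [AddMonoidHom.comp_apply, AddEquiv.toAddMonoidHom_eq_coe, AddMonoidHom.coe_coe, this]
  rw [Finsupp.liftAddHom_apply_single]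
  split_ifs <;> rfl

/-- The element `x - 1`. -/
noncomputable def b (y : X) : MonoidAlgebra K G := single (φ (FreeGroup.of y)) 1 - 1

theorem b_mul_single (y : X) (g : G) (a : K) :
    b φ y * single g a = single (φ (FreeGroup.of y) * g) a - single g a := by
  unfold b
  rw [sub_mul, single_mul_single, one_mul, one_mul]

theorem one_notMem_E (x : X) (hφ : Function.Injective φ) : (1 : G) ∉ E φ x := by
  rintro ⟨n, h1, h2⟩
  have : n = 1 := hφ (by rw [h2, map_one])
  rw [this, lastL_one] at h1
  simp at h1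

theorem mul_mem_E (hφ : Function.Injective φ) (x y : X) (h : G) :
    φ (FreeGroup.of y) * h ∈ E φ x ↔ h ∈ E φ x ∨ (h = 1 ∧ y = x) := by
  constructor
  · rintro ⟨n, h1, h2⟩
    have h3 : h = φ ((FreeGroup.of y)⁻¹ * n) := by
      rw [map_mul, h2, map_inv]; simp
    have h4 : FreeGroup.of y * ((FreeGroup.of y)⁻¹ * n) = n := by simp
    rw [← h4, lastL_of_mul] at h1
    rcases h1 with h1 | ⟨h1, h5⟩
    · exact Or.inl ⟨_, h1, h3.symm⟩
    · right
      exact ⟨by rw [h3, h1, map_one], h5⟩
  · rintro (⟨n, h1, h2⟩ | ⟨h1, h2⟩)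
    · exact ⟨FreeGroup.of y * n, (lastL_of_mul x y n).mpr (Or.inl h1), by rw [map_mul, h2]⟩
    · exact ⟨FreeGroup.of y * 1, (lastL_of_mul x y 1).mpr (Or.inr ⟨rfl, h2⟩), by rw [map_mul, h1, map_one]⟩

theorem Lh_b_mul (hφ : Function.Injective φ) (x y : X) (s : G) (f : MonoidAlgebra K G) :
    Lh φ x s (b φ y * f) = if y = x then f.coeff s else 0 := by
  classical
  induction f using MonoidAlgebra.induction_linear with
  | zero => simp
  | add f g hf hg =>
    rw [mul_add, map_add, hf, hg]
    split_ifs <;> simp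
  | single g a =>
    rw [b_mul_single, map_sub, Lh_single, Lh_single]
    have e : φ (FreeGroup.of y) * g * s⁻¹ = φ (FreeGroup.of y) * (g * s⁻¹) := by group
    rw [e, mul_mem_E φ hφ]
    have h1 : g * s⁻¹ = 1 ↔ g = s := by rw [mul_inv_eq_one]
    rw [h1, coeff_single, Finsupp.single_apply]
    by_cases hgs : g = s
    · subst hgs
      have h2 := one_notMem_E φ x hφ
      simp [h2]
    · simp [hgs]

/-- `Φ c = ∑ (x - 1) c x`. -/
noncomputable def Phi : (X →₀ MonoidAlgebra K G) →+ MonoidAlgebra K G :=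
  Finsupp.liftAddHom (fun y => AddMonoidHom.mulLeft (b φ y))

theorem Phi_single (y : X) (r : MonoidAlgebra K G) : Phi φ (Finsupp.single y r) = b φ y * r := by
  unfold Phi
  rw [Finsupp.liftAddHom_apply_single]
  rfl

theorem Phi_eq (c : X →₀ MonoidAlgebra K G) : Phi φ c = ∑ y ∈ c.support, b φ y * c y := by
  unfold Phi
  rw [Finsupp.liftAddHom_apply]
  rfl

theorem Lh_Phi (hφ : Function.Injective φ) (x : X) (s : G) (c : X →₀ MonoidAlgebra K G) :
    Lh φ x s (Phi φ c) = (c x).coeff s := by
  induction c using Finsupp.induction_linear with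
  | zero => simp
  | add f g hf hg => rw [map_add, map_add, hf, hg]; simp
  | single y r =>
    rw [Phi_single, Lh_b_mul φ hφ, Finsupp.single_apply]
    split_ifs <;> simp

theorem Phi_injective (hφ : Function.Injective φ) :
    Function.Injective (Phi φ : (X →₀ MonoidAlgebra K G) →+ MonoidAlgebra K G) := by
  intro c c' h
  ext x s
  rw [← Lh_Phi φ hφ x s c, ← Lh_Phi φ hφ x s c', h]

theorem Phi_mul (c : X →₀ MonoidAlgebra K G) (r : MonoidAlgebra K G) :
    Phi φ c * r = Phi φ (c.mapRange (· * r) (zero_mul r)) := by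
  induction c using Finsupp.induction_linear with
  | zero => simp
  | add f g hf hg =>
    rw [map_add, add_mul, hf, hg, ← map_add]
    congr 1
    ext1 x
    simp [add_mul]
  | single y s =>
    rw [Phi_single, Finsupp.mapRange_single, Phi_single, mul_assoc]

theorem of_sub_one_mem (m : FreeGroup X) (r : MonoidAlgebra K G) :
    ∃ c, (single (φ m) 1 - 1) * r = Phi φ c := by
  induction m using FreeGroup.induction_on generalizing r with
  | C1 =>
    refine ⟨0, ?_⟩
    rw [map_one, map_zero, ← one_def, sub_self, zero_mul]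
  | of y => exact ⟨Finsupp.single y r, by rw [Phi_single]; rfl⟩
  | inv_of y _ =>
    refine ⟨Finsupp.single y (-(single (φ (FreeGroup.of y)⁻¹) 1 * r)), ?_⟩
    have e1 : (single (φ (FreeGroup.of y)) 1 : MonoidAlgebra K G) *
        single (φ (FreeGroup.of y)⁻¹) 1 = 1 := by
      rw [single_mul_single, ← map_mul, mul_inv_cancel, map_one, mul_one, ← one_def]
    rw [Phi_single, mul_neg, ← mul_assoc]
    unfold b
    rw [sub_mul (single (φ (FreeGroup.of y)) 1), e1, one_mul]
    simp only [sub_mul, one_mul]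
    abel
  | mul m1 m2 h1 h2 =>
    obtain ⟨c1, hc1⟩ := h1 (single (φ m2) 1 * r)
    obtain ⟨c2, hc2⟩ := h2 r
    refine ⟨c1 + c2, ?_⟩
    rw [map_add, ← hc1, ← hc2, sub_mul, sub_mul, sub_mul, ← mul_assoc, single_mul_single,
      map_mul, one_mul, one_mul, one_mul]
    abel

variable {N : Subgroup G}

theorem mul_b_mem [N.Normal] (hN : ∀ g, g ∈ N ↔ ∃ m, φ m = g) (x : X) (r : MonoidAlgebra K G) :
    ∃ c, r * b φ x = Phi φ c := by
  induction r using MonoidAlgebra.induction_linear with
  | zero => exact ⟨0, by simp⟩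
  | add f g hf hg =>
    obtain ⟨c1, h1⟩ := hf
    obtain ⟨c2, h2⟩ := hg
    exact ⟨c1 + c2, by rw [add_mul, h1, h2, map_add]⟩
  | single g a =>
    have h1 : φ (FreeGroup.of x) ∈ N := (hN _).mpr ⟨_, rfl⟩
    obtain ⟨m, hm⟩ := (hN _).mp (Subgroup.Normal.conj_mem inferInstance _ h1 g)
    obtain ⟨c, hc⟩ := of_sub_one_mem φ m (single g a)
    refine ⟨c, ?_⟩
    rw [← hc, hm]
    unfold b
    rw [mul_sub, sub_mul, single_mul_single, single_mul_single]
    simp

/-- The powers of the kernel. -/
def D : ℕ → MonoidAlgebra K G → Prop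
  | 0, _ => True
  | n + 1, α => ∃ c, α = Phi φ c ∧ ∀ x, D n (c x)

theorem D_zero' (n : ℕ) : D φ n (0 : MonoidAlgebra K G) := by
  induction n with
  | zero => trivial
  | succ n ih => exact ⟨0, by simp, fun x => by simpa using ih⟩

theorem D_add {n : ℕ} {α β : MonoidAlgebra K G} (h1 : D φ n α) (h2 : D φ n β) :
    D φ n (α + β) := by
  induction n generalizing α β with
  | zero => trivial
  | succ n ih =>
    obtain ⟨c, rfl, hc⟩ := h1
    obtain ⟨c', rfl, hc'⟩ := h2
    exact ⟨c + c', by rw [map_add], fun x => ih (hc x) (hc' x)⟩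

theorem D_sum {n : ℕ} {ι : Type*} (s : Finset ι) (f : ι → MonoidAlgebra K G)
    (h : ∀ i ∈ s, D φ n (f i)) : D φ n (∑ i ∈ s, f i) := by
  classical
  induction s using Finset.induction_on with
  | empty => simpa using D_zero' φ n
  | insert a s ha ih =>
    rw [Finset.sum_insert ha]
    exact D_add φ (h a (Finset.mem_insert_self a s))
      (ih (fun i hi => h i (Finset.mem_insert_of_mem hi)))

theorem D_succ {n : ℕ} {α : MonoidAlgebra K G} (h : D φ (n + 1) α) : D φ n α := by
  induction n generalizing α with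
  | zero => trivial
  | succ n ih =>
    obtain ⟨c, rfl, hc⟩ := h
    exact ⟨c, rfl, fun x => ih (hc x)⟩

theorem D_mul_left [N.Normal] (hN : ∀ g, g ∈ N ↔ ∃ m, φ m = g) {n : ℕ}
    {α : MonoidAlgebra K G} (h : D φ n α) (r : MonoidAlgebra K G) : D φ n (r * α) := by
  induction n generalizing α r with
  | zero => trivial
  | succ n ih =>
    obtain ⟨c, rfl, hc⟩ := h
    choose d hd using fun x => mul_b_mem φ hN x r
    rw [Phi_eq, Finset.mul_sum]
    apply D_sum
    intro x _
    rw [← mul_assoc, hd x, Phi_mul]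
    refine ⟨_, rfl, fun y => ?_⟩
    rw [Finsupp.mapRange_apply]
    exact ih (hc x) _

end Vale.Agent.P201
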