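import Vale.Agent.P201.Main

/-! Series with locally free factors and residual properties. -/

namespace Vale.Agent.P201

open MonoidAlgebra

variable {K : Type*} [CommRing K]

theorem noZeroDivisors_of_mulEquiv {A B : Type*} [Group A] [Group B] (e : A ≃* B)
    (h : NoZeroDivisors (MonoidAlgebra K A)) : NoZeroDivisors (MonoidAlgebra K B) :=
  Function.Injective.noZeroDivisors (domCongr K K e.symm) (AlgEquiv.injective _) (map_zero _)
    (map_mul _)

variable {G : Type*} [Group G]

theorem series_step {N M : Subgroup G} [N.Normal] [M.Normal] (hMN : M ≤ N)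
    (hfree : LocallyFree (N.map (QuotientGroup.mk' M)))
    (h : NoZeroDivisors (MonoidAlgebra K (G ⧸ N))) : NoZeroDivisors (MonoidAlgebra K (G ⧸ M)) := by
  haveI : (N.map (QuotientGroup.mk' M)).Normal :=
    Subgroup.Normal.map inferInstance _ (QuotientGroup.mk'_surjective M)
  exact noZeroDivisors_of_locallyFree hfree
    (noZeroDivisors_of_mulEquiv (QuotientGroup.quotientQuotientEquivQuotient M N hMN).symm h)

theorem map_ne_zero_of_injOn {M : Subgroup G} [M.Normal] {α : MonoidAlgebra K G}
    (h : ∀ g g', α.coeff g ≠ 0 → α.coeff g' ≠ 0 → g⁻¹ * g' ∈ M → g = g') (hα : α ≠ 0) :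
    mapDomainRingHom K (QuotientGroup.mk' M) α ≠ 0 := by
  intro h0
  have h1 : Finsupp.mapDomain (QuotientGroup.mk' M) α.coeff = 0 := by
    have := congrArg MonoidAlgebra.coeff h0
    exact this
  have h2 : Set.InjOn (QuotientGroup.mk' M) (α.coeff.support : Set G) := by
    intro g hg g' hg' hgg
    exact h g g' (Finsupp.mem_support_iff.mp hg) (Finsupp.mem_support_iff.mp hg')
      (QuotientGroup.eq.mp hgg)
  have h3 : α.coeff = 0 := by
    refine Finsupp.mapDomain_injOn (M := K) _ h2 (x₁ := α.coeff) (x₂ := 0) ?_ ?_ ?_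
    · exact Set.Subset.refl _
    · rw [Set.mem_setOf_eq, Finsupp.support_zero]
      simp
    · rw [h1, Finsupp.mapDomain_zero]
  exact hα (coeff_eq_zero.mp h3)

theorem residual (h : ∀ T : Finset G, (∀ t ∈ T, t ≠ 1) → ∃ (M : Subgroup G) (_ : M.Normal),
    (∀ t ∈ T, t ∉ M) ∧ NoZeroDivisors (MonoidAlgebra K (G ⧸ M))) :
    NoZeroDivisors (MonoidAlgebra K G) := by
  classical
  constructor
  intro α β hab
  by_contra hcon
  push Not at hcon
  obtain ⟨hα, hβ⟩ := hcon
  let T : Finset G := (((α.coeff.support ×ˢ α.coeff.support) ∪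
    (β.coeff.support ×ˢ β.coeff.support)).image (fun q => q.1⁻¹ * q.2)).filter (fun t => t ≠ 1)
  obtain ⟨M, hM, hT, hdom⟩ := h T (fun t ht => (Finset.mem_filter.mp ht).2)
  have hT' : ∀ g g', (g, g') ∈ (α.coeff.support ×ˢ α.coeff.support) ∪
      (β.coeff.support ×ˢ β.coeff.support) → g⁻¹ * g' ∈ M → g = g' := by
    intro g g' hgg hm
    by_contra hne
    refine hT (g⁻¹ * g') (Finset.mem_filter.mpr ⟨Finset.mem_image.mpr ⟨_, hgg, rfl⟩, ?_⟩) hm
    intro h1
    exact hne (inv_mul_eq_one.mp h1)
  have h1 : mapDomainRingHom K (QuotientGroup.mk' M) α ≠ 0 := by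
    refine map_ne_zero_of_injOn (fun g g' hg hg' hm => hT' g g' ?_ hm) hα
    exact Finset.mem_union_left _ (Finset.mem_product.mpr ⟨Finsupp.mem_support_iff.mpr hg,
      Finsupp.mem_support_iff.mpr hg'⟩)
  have h2 : mapDomainRingHom K (QuotientGroup.mk' M) β ≠ 0 := by
    refine map_ne_zero_of_injOn (fun g g' hg hg' hm => hT' g g' ?_ hm) hβ
    exact Finset.mem_union_right _ (Finset.mem_product.mpr ⟨Finsupp.mem_support_iff.mpr hg,
      Finsupp.mem_support_iff.mpr hg'⟩)
  have h3 : mapDomainRingHom K (QuotientGroup.mk' M) α *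
      mapDomainRingHom K (QuotientGroup.mk' M) β = 0 := by
    rw [← map_mul, hab, map_zero]
  rcases mul_eq_zero.mp h3 with h4 | h4
  · exact h1 h4
  · exact h2 h4

theorem descending {N : ℕ → Subgroup G} [hn : ∀ i, (N i).Normal] (hanti : ∀ i, N (i + 1) ≤ N i)
    (hinf : ∀ g, (∀ i, g ∈ N i) → g = 1)
    (hfree : ∀ i, LocallyFree ((N i).map (QuotientGroup.mk' (N (i + 1)))))
    (h0 : NoZeroDivisors (MonoidAlgebra K (G ⧸ N 0))) : NoZeroDivisors (MonoidAlgebra K G) := by
  have h1 : ∀ i, NoZeroDivisors (MonoidAlgebra K (G ⧸ N i)) := by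
    intro i
    induction i with
    | zero => exact h0
    | succ i ih => exact series_step (hanti i) (hfree i) ih
  have hA : Antitone N := antitone_nat_of_succ_le hanti
  apply residual
  intro T hT
  have key : ∃ i, ∀ t ∈ T, t ∉ N i := by
    classical
    induction T using Finset.induction_on with
    | empty => exact ⟨0, by simp⟩
    | insert a T ha ih =>
      obtain ⟨i, hi⟩ := ih (fun t ht => hT t (Finset.mem_insert_of_mem ht))
      obtain ⟨j, hj⟩ : ∃ j, a ∉ N j := by
        by_contra hcon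
        push Not at hcon
        exact hT a (Finset.mem_insert_self a T) (hinf a hcon)
      refine ⟨max i j, fun t ht => ?_⟩
      rcases Finset.mem_insert.mp ht with rfl | ht
      · exact fun h => hj (hA (le_max_right i j) h)
      · exact fun h => hi t ht (hA (le_max_left i j) h)
  obtain ⟨i, hi⟩ := key
  exact ⟨N i, hn i, hi, h1 i⟩

end Vale.Agent.P201
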