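import Vale.Agent.P201.Double

/-! Amalgams with a homomorphism that is injective on the factors. -/

namespace Vale.Agent.P201

open MonoidAlgebra Monoid Monoid.PushoutI

section map

variable {ι : Type*} {G : ι → Type*} {G' : ι → Type*} {H H' : Type*} [∀ i, Group (G i)]
  [∀ i, Group (G' i)] [Group H] [Group H'] {φ : ∀ i, H →* G i} {φ' : ∀ i, H' →* G' i}

/-- The image of a word under injective homomorphisms of the factors. -/
def mapWord (F : ∀ i, G i →* G' i) (hF : ∀ i, Function.Injective (F i)) (v : CoprodI.Word G) :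
    CoprodI.Word G' where
  toList := v.toList.map (fun x => ⟨x.1, F x.1 x.2⟩)
  ne_one := by
    intro l hl
    obtain ⟨x, hx, rfl⟩ := List.mem_map.mp hl
    intro h1
    exact v.ne_one x hx ((map_eq_one_iff (F x.1) (hF x.1)).mp h1)
  chain_ne := by
    rw [List.isChain_map]
    exact v.chain_ne

theorem map_injective (hφ : ∀ i, Function.Injective (φ i)) (hφ' : ∀ i, Function.Injective (φ' i))
    (F : ∀ i, G i →* G' i) (hF : ∀ i, Function.Injective (F i)) (k : H →* H')
    (hk : Function.Injective k) (hr : ∀ i g, F i g ∈ (φ' i).range → g ∈ (φ i).range)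
    (Φ : PushoutI φ →* PushoutI φ') (h1 : ∀ i g, Φ (of i g) = of i (F i g))
    (h2 : ∀ h, Φ (base φ h) = base φ' (k h)) : Function.Injective Φ := by
  classical
  rw [injective_iff_map_eq_one]
  intro g hg
  obtain ⟨d⟩ := NormalWord.transversal_nonempty φ hφ
  obtain ⟨w, rfl⟩ := (NormalWord.equiv (d := d)).symm.surjective g
  change Φ (base φ w.head * ofCoprodI (w.toWord).prod) = 1 at hg
  change base φ w.head * ofCoprodI (w.toWord).prod = 1
  have h3 : Φ (ofCoprodI (w.toWord).prod) = ofCoprodI (mapWord F hF w.toWord).prod := by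
    unfold CoprodI.Word.prod mapWord
    simp only [List.map_map, map_list_prod]
    congr 1
    apply List.map_congr_left
    intro x _
    simp only [Function.comp_apply, ofCoprodI_of, h1]
  rw [map_mul, h2, h3] at hg
  have hred : Reduced φ' (mapWord F hF w.toWord) := by
    intro y hy
    obtain ⟨x, hx, rfl⟩ := List.mem_map.mp hy
    intro h4
    obtain ⟨h, h5⟩ := hr x.1 x.2 h4
    have h6 : x.2 ∈ d.set x.1 := w.normalized x.1 x.2 hx
    have h7 := (d.compl x.1).1
    have h8 : ((⟨⟨x.2, h, h5⟩, ⟨1, d.one_mem x.1⟩⟩ : (φ x.1).range × d.set x.1)) =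
        ⟨⟨1, one_mem _⟩, ⟨x.2, h6⟩⟩ := by
      apply h7
      simp
    have h9 : x.2 = 1 := by
      have := congrArg (fun z => (z.2 : G x.1)) h8
      simpa using this.symm
    exact w.ne_one x hx h9
  have h4 : mapWord F hF w.toWord = .empty := by
    refine hred.eq_empty_of_mem_range hφ' ⟨(k w.head)⁻¹, ?_⟩
    rw [map_inv]
    exact inv_eq_of_mul_eq_one_right hg
  have h5 : w.toWord = .empty := by
    apply CoprodI.Word.ext
    have := congrArg CoprodI.Word.toList h4
    exact List.map_eq_nil_iff.mp this
  rw [h4, CoprodI.Word.prod_empty, map_one, mul_one] at hg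
  have h6 : k w.head = 1 := by
    apply base_injective hφ'
    rw [hg, map_one]
  have h7 : w.head = 1 := (map_eq_one_iff k hk).mp h6
  rw [h5, CoprodI.Word.prod_empty, map_one, mul_one, h7, map_one]

end map

universe u

theorem amalgam_over {K : Type*} [CommRing K] {Q C ι : Type u} {A : ι → Type u} [Group Q]
    [Group C] [∀ i, Group (A i)] [Nonempty ι] {φ : ∀ i, C →* A i}
    (hφ : ∀ i, Function.Injective (φ i)) (f : PushoutI φ →* Q)
    (hf : ∀ i, Function.Injective fun a : A i => f (of i a))
    (h : NoZeroDivisors (MonoidAlgebra K Q)) : NoZeroDivisors (MonoidAlgebra K (PushoutI φ)) := by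
  let C' : Subgroup Q := (f.comp (base φ)).range
  let F : ∀ i, A i →* Q := fun i => f.comp (of i)
  let k : C →* C' := (f.comp (base φ)).rangeRestrict
  have hFk : ∀ i, (F i).comp (φ i) = C'.subtype.comp k := by
    intro i
    ext c
    change f (of i (φ i c)) = f (base φ c)
    rw [of_apply_eq_base]
  have hk : Function.Injective k := by
    intro c c' hcc
    obtain ⟨i⟩ := (inferInstance : Nonempty ι)
    apply hφ i
    apply hf i
    change f (of i (φ i c)) = f (of i (φ i c'))
    rw [of_apply_eq_base, of_apply_eq_base]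
    exact congrArg Subtype.val hcc
  let Φ : PushoutI φ →* Amalgam C' ι :=
    lift (fun i => (of (φ := fun _ : ι => C'.subtype) i).comp (F i))
      ((base (fun _ : ι => C'.subtype)).comp k) (by
        intro i
        rw [MonoidHom.comp_assoc, hFk, ← MonoidHom.comp_assoc, of_comp_eq_base])
  have hinj : Function.Injective Φ := by
    refine map_injective hφ (fun _ => C'.subtype_injective) F (fun i => hf i) k hk ?_ Φ ?_ ?_
    · rintro i g ⟨⟨_, c, rfl⟩, hc⟩
      refine ⟨c, ?_⟩
      apply hf i
      change f (of i (φ i c)) = f (of i g)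
      rw [of_apply_eq_base]
      exact hc
    · intro i g
      exact lift_of _ _ _ _
    · intro c
      exact lift_base _ _ _ _
  have := amalgam_domain (K := K) C' (ι := ι) h
  exact Function.Injective.noZeroDivisors (mapDomainRingHom K Φ) (mapDomain_injective hinj)
    (map_zero _) (map_mul _)

end Vale.Agent.P201
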