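import Mathlib

/-! First and last letters of reduced words. -/

namespace Vale.Agent.P201

open FreeGroup

variable {X : Type*} [DecidableEq X]

/-- The last letter of the reduced word. -/
def lastL (n : FreeGroup X) : Option (X × Bool) := n.toWord.getLast?

/-- The first letter of the reduced word. -/
def headL (n : FreeGroup X) : Option (X × Bool) := n.toWord.head?

theorem toWord_of_mul (y : X) (n : FreeGroup X) :
    (of y * n).toWord =
      if headL n = some (y, false) then n.toWord.tail else (y, true) :: n.toWord := by
  have h : of y * n = mk ((y, true) :: n.toWord) := by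
    conv_lhs => rw [← mk_toWord (x := n)]
    rfl
  rw [h, toWord_mk, reduce.cons, reduce_toWord]
  unfold headL
  cases hw : n.toWord with
  | nil => simp
  | cons a l =>
    rcases a with ⟨a1, a2⟩
    simp only [List.head?_cons, List.tail_cons, Option.some.injEq, Prod.mk.injEq]
    by_cases h1 : a1 = y
    · subst h1
      cases a2 <;> simp
    · have h2 : ¬ (y = a1) := fun e => h1 e.symm
      simp [h1, h2]

theorem lastL_one : lastL (1 : FreeGroup X) = none := by
  simp [lastL]

theorem lastL_of_mul (x y : X) (n : FreeGroup X) :
    lastL (of y * n) = some (x, true) ↔ lastL n = some (x, true) ∨ (n = 1 ∧ y = x) := by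
  unfold lastL
  rw [toWord_of_mul]
  have hn : n = 1 ↔ n.toWord = [] := toWord_eq_nil_iff.symm
  rw [hn]
  unfold headL
  cases hw : n.toWord with
  | nil => simp
  | cons a l =>
    cases l with
    | nil =>
      by_cases h1 : a = (y, false)
      · subst h1
        simp
      · simp [h1]
    | cons b l =>
      by_cases h1 : a = (y, false)
      · subst h1
        simp
      · simp [h1]

/-- If `m` is not longer than `s`, then `m s⁻¹` ends with the inverse of the first letter
of `s`. -/
theorem lastL_mul_inv {m s : FreeGroup X} (hms : m ≠ s) (hl : m.norm ≤ s.norm) (x : X) :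
    lastL (m * s⁻¹) = some (x, true) ↔ headL s = some (x, false) := by
  have key : lastL (m * s⁻¹) = (headL s).map (fun a => (a.1, !a.2)) := by
    by_contra hcon
    set w := m * s⁻¹ with hw
    have hm : m = w * s := by rw [hw]; simp
    have hred : FreeGroup.IsReduced (w.toWord ++ s.toWord) := by
      unfold FreeGroup.IsReduced
      rw [List.isChain_append]
      refine ⟨isReduced_toWord, isReduced_toWord, ?_⟩
      intro a ha b hb hab
      by_contra hne
      apply hcon
      unfold lastL headL
      rw [Option.mem_def] at ha hb
      rw [ha, hb]
      simp only [Option.map_some, Option.some.injEq]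
      rcases a with ⟨a1, a2⟩
      rcases b with ⟨b1, b2⟩
      simp only at hab hne
      subst hab
      have h9 : a2 = !b2 := by
        cases a2 <;> cases b2
        · exact absurd rfl hne
        · rfl
        · rfl
        · exact absurd rfl hne
      rw [h9]
    have h1 : m.toWord = w.toWord ++ s.toWord := by
      rw [hm, toWord_mul, hred.reduce_eq]
    have h2 : w.toWord.length = 0 := by
      have h3 : m.toWord.length ≤ s.toWord.length := hl
      rw [h1, List.length_append] at h3
      omega
    have h4 : w = 1 := toWord_eq_nil_iff.mp (List.length_eq_zero_iff.mp h2)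
    apply hms
    rw [hm, h4, one_mul]
  rw [key]
  cases hh : headL s with
  | none => simp
  | some a =>
    rcases a with ⟨a1, a2⟩
    cases a2 <;> simp

theorem norm_of_mul (y : X) (n : FreeGroup X) :
    (of y * n).norm = if headL n = some (y, false) then n.norm - 1 else n.norm + 1 := by
  unfold FreeGroup.norm
  rw [toWord_of_mul]
  split_ifs <;> simp

theorem headL_of_mul {y : X} {n : FreeGroup X} (h : headL n ≠ some (y, false)) :
    headL (of y * n) = some (y, true) := by
  unfold headL
  rw [toWord_of_mul, if_neg h]
  rfl

end Vale.Agent.P201
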